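import Vale.Agent.P297.Gen.Main
import Vale.Agent.P297.Gen.QuotDefs

open CategoryTheory AlgebraicGeometry IntermediateField Polynomial Vale.Agent.P297
  Vale.Agent.P297.H839 Vale.Agent.P297.Gen

namespace Vale.Agent.Results.P297.SplitJacobians

theorem result (K : Type) [Field K] [Algebra ℂ K] (l x y : K)
    (f : (IntermediateField.adjoin ℂ {l})[X]) (h : Pencil l x y f)
    (F₁ F₂ : IntermediateField ℂ K) (n₁ n₂ : ℕ)
    (h₁ : RationalQuotient l x y F₁ n₁ 1) (h₂ : RationalQuotient l x y F₂ n₂ X)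
    (heven : Even (n₁ + n₂)) (htr₁ : Algebra.trace F₁ K x = 0)
    (htr₂ : Algebra.trace F₂ K x⁻¹ = 0) :
    PointsEquivalent K := by
  obtain ⟨P₁, Q₁, hQ₁, hJ₁, hw₁, hv₁⟩ := h₁.form
  obtain ⟨P₂, Q₂, hQ₂, hJ₂, hw₂, hv₂⟩ := h₂.form
  rw [map_one, div_one] at hv₁
  rw [aeval_X] at hv₂
  exact split_pencil h F₁ F₂ h₁.rational h₂.rational h₁.mem h₂.mem h₁.gen h₂.gen h₁.degree
    h₂.degree h₁.two h₂.two heven P₁ Q₁ P₂ Q₂ hQ₁ hQ₂ hJ₁ hJ₂ hw₁ hw₂ hv₁ hv₂ htr₁ htr₂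

end Vale.Agent.Results.P297.SplitJacobians
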