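import Vale.Agent.P297.R2.H834.One
import Vale.Agent.P297.R2.H834.Two
import Vale.Agent.P297.R2.H834.Three

open Vale.Agent.P297.H109 Vale.Agent.P297.R2.H834

namespace Vale.Agent.Results.P297.TriangleTwins

theorem result :
    -- (1) the type FFF
    (∀ ω d e : ℂ, ω ^ 2 + ω + 1 = 0 → TwinFamily (fun _ _ _ s t => TriOne ω d e s t)) ∧
    -- (2) the type FFR
    (∀ κ n : ℂ, κ ≠ 0 → κ ≠ 1 → κ ≠ -1 → n * (κ + 1) ≠ 1 - κ →
      TwinFamily (fun _ _ _ s t => TriTwo κ n s t)) ∧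
    -- (3) the type DDR
    (∀ κ g : ℂ, κ ≠ -1 → g ≠ -1 → g + κ ≠ -1 →
      TwinFamily (fun _ _ _ s t => TriThree κ g s t)) := by
  refine ⟨fun ω d e h => tri_one h d e, fun κ n h0 h1 h2 h3 => ?_, fun κ g h0 h1 h2 => ?_⟩
  · refine tri_two h0 (sub_ne_zero.2 h1) (fun h => h2 (eq_neg_of_add_eq_zero_left h)) (fun h => ?_)
    apply h3
    linear_combination h
  · exact tri_three (fun h => h0 (eq_neg_of_add_eq_zero_left h))
      (fun h => h1 (eq_neg_of_add_eq_zero_left h)) (fun h => h2 (eq_neg_of_add_eq_zero_left h))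

end Vale.Agent.Results.P297.TriangleTwins
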